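import Mathlib
import Crest.Prelude.Def_PurelyInfinite

/-!
# Row 110 (S0145): purely infinite => strongly purely infinite.   Definitions

Paper proof: `ideas` 366 (helper22, general case) + the text `S'` (helper93/helper10/helper5/helper22).
Conventions:
* all algebras: `[NonUnitalCStarAlgebra A]`, `A : Type u`; the order is the spectral order (scoped instances below,
  `open scoped Crest.Agent.R110` or work in the namespace);
* homs: `φ : A →⋆ₙₐ[ℂ] B`;
* `PI A` : every `x⋆x` is properly infinite;
* `cut x y` : 0 on `(-∞,x]`, 1 on `[y,∞)`, linear between (`0 ≤ x < y` always);  `pp t` : `u ↦ (u - t)_+` (`t ≥ 0`);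
* `Dom a b` : every hom killing `b` kills `a`  (for positive elements: `a` in the closed ideal generated by `b`);
* `XT k T M = k⋆k - M • T⋆T`.
-/

set_option autoImplicit false

namespace Crest.Agent.R110

universe u

scoped instance (priority := 50) instPO (A : Type u) [NonUnitalCStarAlgebra A] : PartialOrder A :=
  CStarAlgebra.spectralOrder A

scoped instance (priority := 50) instSOR (A : Type u) [NonUnitalCStarAlgebra A] : StarOrderedRing A :=
  CStarAlgebra.spectralOrderedRing A

/-- every positive element is properly infinite -/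
def PI (A : Type u) [NonUnitalCStarAlgebra A] : Prop :=
  ∀ x : A, Crest.OpAlg.IsProperlyInfinite (star x * x)

/-- cut function: `0` on `(-∞,x]`, `1` on `[y,∞)`, linear in between -/
noncomputable def cut (x y : ℝ) (t : ℝ) : ℝ := max 0 (min 1 ((t - x) / (y - x)))

/-- `(t - x)_+` -/
noncomputable def pp (x : ℝ) (t : ℝ) : ℝ := max (t - x) 0

/-- `cut x y` applied to `a` -/
noncomputable def ct {A : Type u} [NonUnitalCStarAlgebra A] (x y : ℝ) (a : A) : A := cfcₙ (cut x y) a

/-- `(a - t)_+` -/
noncomputable def ps {A : Type u} [NonUnitalCStarAlgebra A] (t : ℝ) (a : A) : A := cfcₙ (pp t) a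

/-- every `⋆`-homomorphism killing `b` kills `a` -/
def Dom {A : Type u} [NonUnitalCStarAlgebra A] (a b : A) : Prop :=
  ∀ (Q : Type u) [NonUnitalCStarAlgebra Q] (φ : A →⋆ₙₐ[ℂ] Q), φ b = 0 → φ a = 0

/-- `k⋆k - M T⋆T` -/
noncomputable def XT {A : Type u} [NonUnitalCStarAlgebra A] (k T : A) (M : ℝ) : A :=
  star k * k - M • (star T * T)

/-- elements of the closed right ideal of `b` -/
def Lev {A : Type u} [NonUnitalCStarAlgebra A] (b w : A) : Prop :=
  ∀ c : A, c * b = b → c * w = w

end Crest.Agent.R110
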