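import Crest.Agent.R110.Defs

/-!
# R110 toolkit KCut: cut functions `ct x y a` (0 below x, 1 above y) and `ps t a = (a - t)_+`

All are routine `cfcₙ` manipulations (`cfcₙ_mul`, `cfcₙ_comp`, `cfcₙ_nonneg`, `norm_cfcₙ_le`, `NonUnitalStarAlgHom.map_cfcₙ`,
`cfcₙ_congr` on the quasispectrum; for `0 ≤ a` the quasispectrum is in `[0, ‖a‖]`).
-/

set_option autoImplicit false

namespace Crest.Agent.R110

universe u
variable {A B : Type u} [NonUnitalCStarAlgebra A] [NonUnitalCStarAlgebra B]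

theorem continuous_cut (x y : ℝ) : Continuous (cut x y) := by
  unfold cut; fun_prop
theorem continuous_pp (x : ℝ) : Continuous (pp x) := by
  unfold pp; fun_prop
theorem cut_nonneg (x y t : ℝ) : 0 ≤ cut x y t := le_max_left _ _
theorem cut_le_one (x y t : ℝ) : cut x y t ≤ 1 := max_le zero_le_one (min_le_left _ _)
theorem cut_of_le {x y t : ℝ} (h : x < y) (ht : t ≤ x) : cut x y t = 0 := by
  unfold cut
  apply max_eq_left
  exact (min_le_right _ _).trans (div_nonpos_of_nonpos_of_nonneg (by linarith) (by linarith))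
theorem cut_of_ge {x y t : ℝ} (h : x < y) (ht : y ≤ t) : cut x y t = 1 := by
  unfold cut
  rw [min_eq_left, max_eq_right zero_le_one]
  rw [le_div_iff₀ (by linarith)]; linarith
theorem pp_nonneg (x t : ℝ) : 0 ≤ pp x t := le_max_right _ _
theorem pp_of_le {x t : ℝ} (ht : t ≤ x) : pp x t = 0 := max_eq_right (by linarith)
theorem pp_of_ge {x t : ℝ} (ht : x ≤ t) : pp x t = t - x := max_eq_left (by linarith)
theorem cut_zero {x y : ℝ} (hx : 0 ≤ x) (h : x < y) : cut x y 0 = 0 := cut_of_le h hx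
theorem pp_zero {x : ℝ} (hx : 0 ≤ x) : pp x 0 = 0 := pp_of_le hx

theorem ct_nonneg {x y : ℝ} (a : A) : 0 ≤ ct x y a := by
  unfold ct
  exact cfcₙ_nonneg fun t _ => cut_nonneg x y t
theorem ct_sa {x y : ℝ} (a : A) : star (ct x y a) = ct x y a :=
  (IsSelfAdjoint.of_nonneg (ct_nonneg a)).star_eq
theorem norm_ct_le {x y : ℝ} (a : A) : ‖ct x y a‖ ≤ 1 := by
  unfold ct
  refine norm_cfcₙ_le fun t _ => ?_
  rw [Real.norm_of_nonneg (cut_nonneg x y t)]
  exact cut_le_one x y t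
theorem ps_nonneg {t : ℝ} (a : A) : 0 ≤ ps t a := by
  unfold ps
  exact cfcₙ_nonneg fun s _ => pp_nonneg t s
theorem ps_sa {t : ℝ} (a : A) : star (ps t a) = ps t a :=
  (IsSelfAdjoint.of_nonneg (ps_nonneg a)).star_eq
theorem norm_ps_le {t : ℝ} (ht : 0 ≤ t) {a : A} (ha : star a = a) : ‖ps t a‖ ≤ ‖a‖ := by
  have hsa : IsSelfAdjoint a := ha
  unfold ps
  refine norm_cfcₙ_le fun s hs => ?_
  have h1 : ‖s‖ ≤ ‖a‖ := by
    have := norm_apply_le_norm_cfcₙ (fun x : ℝ => x) a hs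
    rwa [cfcₙ_id' ℝ a] at this
  rw [Real.norm_of_nonneg (pp_nonneg t s)]
  refine le_trans ?_ h1
  rw [Real.norm_eq_abs]
  unfold pp
  apply max_le
  · linarith [le_abs_self s]
  · exact abs_nonneg s

theorem map_ct (φ : A →⋆ₙₐ[ℂ] B) {x y : ℝ} (hx : 0 ≤ x) (hxy : x < y) {a : A} (ha : star a = a) :
    φ (ct x y a) = ct x y (φ a) := by
  have hsa : IsSelfAdjoint a := ha
  unfold ct
  exact NonUnitalStarAlgHomClass.map_cfcₙ φ (cut x y) a (continuous_cut x y).continuousOn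
    (cut_zero hx hxy) (by fun_prop) hsa (hsa.map φ)
theorem map_ps (φ : A →⋆ₙₐ[ℂ] B) {t : ℝ} (ht : 0 ≤ t) {a : A} (ha : star a = a) :
    φ (ps t a) = ps t (φ a) := by
  have hsa : IsSelfAdjoint a := ha
  unfold ps
  exact NonUnitalStarAlgHomClass.map_cfcₙ φ (pp t) a (continuous_pp t).continuousOn
    (pp_zero ht) (by fun_prop) hsa (hsa.map φ)

theorem cut_mul_cut_eq {x y x' y' : ℝ} (hxy : x < y) (h : y ≤ x') (hxy' : x' < y') (t : ℝ) :
    cut x y t * cut x' y' t = cut x' y' t := by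
  rcases le_total t x' with h1 | h1
  · rw [cut_of_le hxy' h1, mul_zero]
  · rw [cut_of_ge hxy (h.trans h1), one_mul]

theorem cut_mul_pp_eq {x y t : ℝ} (hxy : x < y) (h : y ≤ t) (s : ℝ) :
    cut x y s * pp t s = pp t s := by
  rcases le_total s t with h1 | h1
  · rw [pp_of_le h1, mul_zero]
  · rw [cut_of_ge hxy (h.trans h1), one_mul]

/-- `y ≤ x'`: the lower cut is a unit for the upper one -/
theorem ct_mul_ct {x y x' y' : ℝ} (hx : 0 ≤ x) (hxy : x < y) (h : y ≤ x') (hxy' : x' < y') {a : A}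
    (ha : 0 ≤ a) : ct x y a * ct x' y' a = ct x' y' a := by
  unfold ct
  rw [← cfcₙ_mul (cut x y) (cut x' y') a (continuous_cut x y).continuousOn (cut_zero hx hxy)
    (continuous_cut x' y').continuousOn (cut_zero (by linarith) hxy')]
  exact cfcₙ_congr fun t _ => cut_mul_cut_eq hxy h hxy' t
theorem ct_mul_ct' {x y x' y' : ℝ} (hx : 0 ≤ x) (hxy : x < y) (h : y ≤ x') (hxy' : x' < y') {a : A}
    (ha : 0 ≤ a) : ct x' y' a * ct x y a = ct x' y' a := by
  have := congrArg star (ct_mul_ct hx hxy h hxy' ha)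
  rwa [star_mul, ct_sa, ct_sa] at this
theorem ct_mul_ps {x y t : ℝ} (hx : 0 ≤ x) (hxy : x < y) (h : y ≤ t) {a : A}
    (ha : 0 ≤ a) : ct x y a * ps t a = ps t a := by
  unfold ct ps
  rw [← cfcₙ_mul (cut x y) (pp t) a (continuous_cut x y).continuousOn (cut_zero hx hxy)
    (continuous_pp t).continuousOn (pp_zero (by linarith))]
  exact cfcₙ_congr fun s _ => cut_mul_pp_eq hxy h s
theorem ps_mul_ct {x y t : ℝ} (hx : 0 ≤ x) (hxy : x < y) (h : y ≤ t) {a : A}
    (ha : 0 ≤ a) : ps t a * ct x y a = ps t a := by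
  have := congrArg star (ct_mul_ps hx hxy h ha)
  rwa [star_mul, ct_sa, ps_sa] at this
end Crest.Agent.R110
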