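import Crest.Agent.R110.KCut

/-!
# R110 toolkit KCutB: more on `ct x y a`, `ps t a` (see the header of KCut.lean)

`ps_ps`, `ct_ps`: `cfcₙ_comp`.  `ps_eq_zero_iff`: for `0 ≤ a` the quasispectrum is in `[0,‖a‖]` and contains `‖a‖` or use
`‖a‖ ≤ ‖a - ps t a‖ + 0`, `a - ps t a = cfcₙ (min · t) a`.  `norm_le_of_norm_ct_lt_one`: if `u ∈ σₙ(a)`, `u ≥ y` then `1 = cut x y u ∈ σₙ(ct x y a)`.
-/

set_option autoImplicit false

namespace Crest.Agent.R110

universe u
variable {A B : Type u} [NonUnitalCStarAlgebra A] [NonUnitalCStarAlgebra B]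

theorem kb_norm_le {a : A} (ha : 0 ≤ a) {r : ℝ} (h : ∀ u ∈ quasispectrum ℝ a, u ≤ r)
    (hr : 0 ≤ r) : ‖a‖ ≤ r := by
  have h1 : ‖cfcₙ (fun u : ℝ => u) a‖ ≤ r := by
    refine norm_cfcₙ_le fun u hu => ?_
    rw [Real.norm_of_nonneg (quasispectrum_nonneg_of_nonneg a ha u hu)]
    exact h u hu
  rwa [cfcₙ_id' ℝ a] at h1

theorem kb_le_norm {a : A} (ha : 0 ≤ a) {u : ℝ} (hu : u ∈ quasispectrum ℝ a) : u ≤ ‖a‖ := by
  have h1 := norm_apply_le_norm_cfcₙ (fun x : ℝ => x) a hu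
  rw [cfcₙ_id' ℝ a, Real.norm_eq_abs] at h1
  exact (le_abs_self u).trans h1

theorem ps_ps {s t : ℝ} (hs : 0 ≤ s) (ht : 0 ≤ t) {a : A} (ha : 0 ≤ a) :
    ps s (ps t a) = ps (s + t) a := by
  unfold ps
  rw [← cfcₙ_comp (pp s) (pp t) a (continuous_pp s).continuousOn (pp_zero hs)
    (continuous_pp t).continuousOn (pp_zero ht)]
  refine cfcₙ_congr fun u _ => ?_
  simp only [Function.comp_apply]
  rcases le_total u t with h | h
  · rw [pp_of_le h, pp_zero hs, pp_of_le (by linarith)]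
  · rw [pp_of_ge h]
    unfold pp
    congr 1
    ring

theorem ct_ps {x y t : ℝ} (hx : 0 ≤ x) (hxy : x < y) (ht : 0 ≤ t) {a : A} (ha : 0 ≤ a) :
    ct x y (ps t a) = ct (x + t) (y + t) a := by
  unfold ct ps
  rw [← cfcₙ_comp (cut x y) (pp t) a (continuous_cut x y).continuousOn (cut_zero hx hxy)
    (continuous_pp t).continuousOn (pp_zero ht)]
  refine cfcₙ_congr fun u _ => ?_
  simp only [Function.comp_apply]
  rcases le_total u t with h | h
  · rw [pp_of_le h, cut_zero hx hxy, cut_of_le (by linarith) (by linarith)]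
  · rw [pp_of_ge h]
    unfold cut
    have h1 : u - t - x = u - (x + t) := by ring
    have h2 : y + t - (x + t) = y - x := by ring
    rw [h1, h2]

theorem ps_eq_zero_iff {t : ℝ} (ht : 0 ≤ t) {a : A} (ha : 0 ≤ a) : ps t a = 0 ↔ ‖a‖ ≤ t := by
  constructor
  · intro h
    refine kb_norm_le ha (fun u hu => ?_) ht
    have h1 := norm_apply_le_norm_cfcₙ (pp t) a hu (continuous_pp t).continuousOn (pp_zero ht)
    have h2 : cfcₙ (pp t) a = 0 := h
    rw [h2, norm_zero] at h1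
    have h3 : pp t u = 0 := norm_le_zero_iff.1 h1
    by_contra hlt
    push Not at hlt
    rw [pp_of_ge hlt.le] at h3
    linarith
  · intro h
    unfold ps
    rw [cfcₙ_congr (g := fun _ => (0 : ℝ)) fun u hu => ?_]
    · exact cfcₙ_const_zero ℝ a
    · exact pp_of_le ((kb_le_norm ha hu).trans h)

theorem ct_eq_zero {x y : ℝ} (hx : 0 ≤ x) (hxy : x < y) {a : A} (ha : 0 ≤ a) (h : ‖a‖ ≤ x) :
    ct x y a = 0 := by
  unfold ct
  rw [cfcₙ_congr (g := fun _ => (0 : ℝ)) fun u hu => ?_]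
  · exact cfcₙ_const_zero ℝ a
  · exact cut_of_le hxy ((kb_le_norm ha hu).trans h)

theorem norm_le_of_norm_ct_lt_one {x y : ℝ} (hx : 0 ≤ x) (hxy : x < y) {a : A} (ha : 0 ≤ a)
    (h : ‖ct x y a‖ < 1) : ‖a‖ ≤ y := by
  refine kb_norm_le ha (fun u hu => ?_) (by linarith)
  by_contra hlt
  push Not at hlt
  have h1 := norm_apply_le_norm_cfcₙ (cut x y) a hu (continuous_cut x y).continuousOn
    (cut_zero hx hxy)
  rw [cut_of_ge hxy hlt.le, norm_one] at h1
  have h2 : ‖cfcₙ (cut x y) a‖ < 1 := h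
  linarith

/-- `‖(1 - ct x y a) a‖ ≤ y`-type estimate -/
theorem norm_sub_ct_mul_le {x y : ℝ} (hx : 0 ≤ x) (hxy : x < y) {a : A} (ha : 0 ≤ a) :
    ‖a - ct x y a * a‖ ≤ y := by
  have hcont := (continuous_cut x y)
  have h1 : a - ct x y a * a = cfcₙ (fun u : ℝ => u - cut x y u * u) a := by
    have h2 : cfcₙ (fun u : ℝ => cut x y u * u) a = ct x y a * a := by
      rw [cfcₙ_mul (cut x y) (fun u : ℝ => u) a hcont.continuousOn (cut_zero hx hxy)
        continuousOn_id rfl, cfcₙ_id' ℝ a]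
      rfl
    rw [cfcₙ_sub (fun u : ℝ => u) (fun u : ℝ => cut x y u * u) a continuousOn_id rfl
      (hcont.mul continuous_id).continuousOn (by simp), h2, cfcₙ_id' ℝ a]
  rw [h1]
  refine norm_cfcₙ_le fun u hu => ?_
  have hu0 := quasispectrum_nonneg_of_nonneg a ha u hu
  have hc0 := cut_nonneg x y u
  have hc1 := cut_le_one x y u
  have h3 : 0 ≤ u - cut x y u * u := by nlinarith
  rw [Real.norm_of_nonneg h3]
  rcases le_total u y with h | h
  · nlinarith [mul_nonneg hc0 hu0]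
  · rw [cut_of_ge hxy h]
    linarith

end Crest.Agent.R110
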