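import Crest.Agent.R110.KCutB

/-!
# R110 toolkit KOrd: `ps t a = 0` versus `a ≤ t` (conjugated inequalities, no unit needed)

(all for selfadjoint `a`, `t ≥ 0`; `a = a_+ - a_-`, use `cfcₙ` and `CStarAlgebra.star_left_conjugate_le_norm_smul` or similar;
e.g. `x⋆ax ≤ x⋆ (cfcₙ (min · t)-part) x`; or pass to the unitization, where `ps t a = 0 ↔ a ≤ t·1`)
-/

set_option autoImplicit false

namespace Crest.Agent.R110

universe u
variable {A B : Type u} [NonUnitalCStarAlgebra A] [NonUnitalCStarAlgebra B]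

theorem conj_min_le {t : ℝ} (ht : 0 ≤ t) {a : A} (ha : star a = a) (x : A) :
    star x * cfcₙ (fun u : ℝ => min u t) a * x ≤ t • (star x * x) := by
  have hsa : IsSelfAdjoint a := ha
  have hg0 : (fun u : ℝ => √(max (t - u) 0) - √t) 0 = 0 := by
    simp [max_eq_left ht]
  have hgc : Continuous (fun u : ℝ => √(max (t - u) 0) - √t) := by fun_prop
  set G := cfcₙ (fun u : ℝ => √(max (t - u) 0) - √t) a with hG
  have hGsa : star G = G := (cfcₙ_predicate (R := ℝ) _ a : IsSelfAdjoint G)
  have hK : (2 * √t) • G + G * G = -cfcₙ (fun u : ℝ => min u t) a := by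
    rw [hG, ← cfcₙ_mul _ _ a hgc.continuousOn hg0 hgc.continuousOn hg0,
      ← cfcₙ_smul _ _ a hgc.continuousOn hg0,
      ← cfcₙ_add (fun u : ℝ => (2 * √t) • (√(max (t - u) 0) - √t))
        (fun u : ℝ => (√(max (t - u) 0) - √t) * (√(max (t - u) 0) - √t)) a
        (by fun_prop) (by simp [max_eq_left ht]) (by fun_prop) (by simp [max_eq_left ht]),
      ← cfcₙ_neg]
    apply cfcₙ_congr
    intro u _
    simp only [smul_eq_mul]
    have h1 : √(max (t - u) 0) * √(max (t - u) 0) = max (t - u) 0 :=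
      Real.mul_self_sqrt (le_max_right _ _)
    have h2 : √t * √t = t := Real.mul_self_sqrt ht
    have h3 : max (t - u) 0 - t = -min u t := by
      rcases le_total u t with h | h
      · rw [max_eq_left (by linarith), min_eq_left h]; ring
      · rw [max_eq_right (by linarith), min_eq_right h]; ring
    rw [← h3]
    nlinarith
  have hy := star_mul_self_nonneg (√t • x + G * x)
  have e1 : star (√t • x + G * x) * (√t • x + G * x) =
      (√t * √t) • (star x * x) + star x * ((2 * √t) • G + G * G) * x := by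
    rw [star_add, star_smul, star_mul, hGsa, star_trivial]
    simp only [add_mul, mul_add, smul_add, smul_mul_assoc, mul_smul_comm, smul_smul, two_mul,
      add_smul, mul_assoc]
    abel
  rw [e1, hK, Real.mul_self_sqrt ht, mul_neg, neg_mul, ← sub_eq_add_neg] at hy
  exact sub_nonneg.mp hy

theorem ps_add_min {t : ℝ} (ht : 0 ≤ t) {a : A} (ha : star a = a) :
    ps t a + cfcₙ (fun u : ℝ => min u t) a = a := by
  have hsa : IsSelfAdjoint a := ha
  unfold ps
  rw [← cfcₙ_add (pp t) (fun u : ℝ => min u t) a (continuous_pp t).continuousOn (pp_zero ht)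
    (by fun_prop) (by simp [ht])]
  conv_rhs => rw [← cfcₙ_id' ℝ a]
  apply cfcₙ_congr
  intro u _
  show pp t u + min u t = u
  unfold pp
  rcases le_total u t with h | h
  · rw [max_eq_right (by linarith), min_eq_left h]; ring
  · rw [max_eq_left (by linarith), min_eq_right h]; ring

theorem conj_le_of_ps_eq_zero {t : ℝ} (ht : 0 ≤ t) {a : A} (ha : star a = a) (h : ps t a = 0) (x : A) :
    star x * a * x ≤ t • (star x * x) := by
  have h1 := ps_add_min ht ha
  rw [h, zero_add] at h1
  have h2 := conj_min_le ht ha x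
  rwa [h1] at h2

/-- `x = (a-t)_+` satisfies `x a x - t x x = x x x` -/
theorem ps_conj_eq {t : ℝ} (ht : 0 ≤ t) {a : A} (ha : star a = a) :
    ps t a * a * ps t a - t • (ps t a * ps t a) = ps t a * ps t a * ps t a := by
  have hsa : IsSelfAdjoint a := ha
  have hc := (continuous_pp t).continuousOn (s := quasispectrum ℝ a)
  have h0 := pp_zero ht
  have e1 : ps t a * a * ps t a = cfcₙ (fun u => pp t u * u * pp t u) a := by
    unfold ps
    rw [cfcₙ_mul (fun u => pp t u * u) (pp t) a (hc.mul continuousOn_id) (by simp) hc h0,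
      cfcₙ_mul (pp t) (fun u => u) a hc h0 continuousOn_id rfl, cfcₙ_id' ℝ a]
  have e2 : ps t a * ps t a = cfcₙ (fun u => pp t u * pp t u) a := by
    unfold ps
    rw [cfcₙ_mul (pp t) (pp t) a hc h0 hc h0]
  have e3 : ps t a * ps t a * ps t a = cfcₙ (fun u => pp t u * pp t u * pp t u) a := by
    rw [e2]
    unfold ps
    rw [cfcₙ_mul (fun u => pp t u * pp t u) (pp t) a (hc.mul hc) (by simp [h0]) hc h0]
  rw [e3, e1, e2, ← cfcₙ_smul t (fun u => pp t u * pp t u) a (hc.mul hc) (by simp [h0]),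
    ← cfcₙ_sub (fun u => pp t u * u * pp t u) (fun u => t • (pp t u * pp t u)) a
      ((hc.mul continuousOn_id).mul hc) (by simp) ((hc.mul hc).const_smul t) (by simp [h0])]
  apply cfcₙ_congr
  intro u _
  show pp t u * u * pp t u - t • (pp t u * pp t u) = pp t u * pp t u * pp t u
  rw [smul_eq_mul]
  rcases le_total u t with h | h
  · rw [pp_of_le h]; ring
  · rw [pp_of_ge h]; ring

theorem ps_eq_zero_of_conj_le {t : ℝ} (ht : 0 ≤ t) {a : A} (ha : star a = a)
    (h : ∀ x : A, star x * a * x ≤ t • (star x * x)) : ps t a = 0 := by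
  have h1 := h (ps t a)
  rw [ps_sa] at h1
  have h2 : ps t a * ps t a * ps t a ≤ 0 := by
    rw [← ps_conj_eq ht ha]
    exact sub_nonpos.mpr h1
  have h3 : 0 ≤ ps t a * ps t a * ps t a := by
    have := star_left_conjugate_nonneg (ps_nonneg (t := t) a) (ps t a)
    rwa [ps_sa] at this
  have h4 : ps t a * ps t a * ps t a = 0 := le_antisymm h2 h3
  have h5 : star (ps t a * ps t a) * (ps t a * ps t a) = 0 := by
    rw [star_mul, ps_sa, ← mul_assoc, h4, zero_mul]
  have h6 : star (ps t a) * ps t a = 0 := by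
    rw [ps_sa]
    exact CStarRing.star_mul_self_eq_zero_iff _ |>.mp h5
  exact CStarRing.star_mul_self_eq_zero_iff _ |>.mp h6

/-- `x = (a-t)_+` satisfies `x a x ≥ t x x` -/
theorem ps_conj_ge {t : ℝ} (ht : 0 ≤ t) {a : A} (ha : star a = a) :
    t • (ps t a * ps t a) ≤ ps t a * a * ps t a := by
  rw [← sub_nonneg, ps_conj_eq ht ha]
  have := star_left_conjugate_nonneg (ps_nonneg (t := t) a) (ps t a)
  rwa [ps_sa] at this

theorem ps_eq_zero_of_le {t : ℝ} (ht : 0 ≤ t) {a b : A} (ha : star a = a) (hb : star b = b) (hab : a ≤ b)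
    (h : ps t b = 0) : ps t a = 0 :=
  ps_eq_zero_of_conj_le ht ha fun x =>
    (star_left_conjugate_le_conjugate hab x).trans (conj_le_of_ps_eq_zero ht hb h x)

/-- if `a ≤ b + c`, `‖c‖ ≤ r` and `(b-t)_+ = 0` then `(a-(t+r))_+ = 0` -/
theorem ps_eq_zero_of_le_add {t r : ℝ} (ht : 0 ≤ t) {a b c : A} (ha : star a = a) (hb : star b = b)
    (hc : star c = c) (hab : a ≤ b + c) (hr : ‖c‖ ≤ r) (h : ps t b = 0) : ps (t + r) a = 0 := by
  have hr0 : 0 ≤ r := (norm_nonneg c).trans hr
  refine ps_eq_zero_of_conj_le (add_nonneg ht hr0) ha fun x => ?_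
  have h1 : star x * a * x ≤ star x * (b + c) * x := star_left_conjugate_le_conjugate hab x
  have h2 := conj_le_of_ps_eq_zero ht hb h x
  have h3 : star x * c * x ≤ ‖c‖ • (star x * x) :=
    CStarAlgebra.star_left_conjugate_le_norm_smul (a := x) (b := c) hc
  have h4 : ‖c‖ • (star x * x) ≤ r • (star x * x) :=
    smul_le_smul_of_nonneg_right hr (star_mul_self_nonneg x)
  calc star x * a * x ≤ star x * (b + c) * x := h1
    _ = star x * b * x + star x * c * x := by rw [mul_add, add_mul]
    _ ≤ t • (star x * x) + r • (star x * x) := add_le_add h2 (h3.trans h4)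
    _ = (t + r) • (star x * x) := by rw [add_smul]

/-- norms of vectors from operator inequalities -/
theorem norm_sq_le_of_star_mul_le {c : ℝ} (hc : 0 ≤ c) {x y : A} (h : star x * x ≤ c • (star y * y)) :
    ‖x‖ ^ 2 ≤ c * ‖y‖ ^ 2 := by
  have h1 := CStarAlgebra.norm_le_norm_of_nonneg_of_le (star_mul_self_nonneg x) h
  rw [norm_smul, CStarRing.norm_star_mul_self, CStarRing.norm_star_mul_self, Real.norm_eq_abs,
    abs_of_nonneg hc] at h1
  rw [pow_two, pow_two]
  exact h1

end Crest.Agent.R110
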